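import Mathlib
import Vale.Agent.H96.P171.Defs

/-!
# P171 moonshot, energy layer: pair sums over lists

Pure list lemmas about `lsum` (no measure theory).
Paper proof: `Vale/Agent/H96/P171/PLAN.md`.
-/

open MeasureTheory
open scoped ENNReal

namespace Vale.Agent.H96.P171

/-- `lsum` of `List.ofFn` is the double sum over `i < j`. -/
theorem lsum_ofFn (f : E3 → E3 → ℝ) (N : ℕ) (x : Fin N → E3) :
    lsum f (List.ofFn x) = ∑ i : Fin N, ∑ j : Fin N, if i < j then f (x i) (x j) else 0 := by
  induction N with
  | zero => simp [lsum]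
  | succ N ih =>
    rw [List.ofFn_succ, lsum, ih (fun i => x i.succ), List.map_ofFn, List.sum_ofFn]
    rw [Fin.sum_univ_succ]
    congr 1
    · rw [Fin.sum_univ_succ]
      simp
    · apply Finset.sum_congr rfl
      intro i _
      rw [Fin.sum_univ_succ]
      simp [Fin.succ_lt_succ_iff]

/-- `lsum` of a symmetric function is invariant under permutations. -/
theorem lsum_perm (f : E3 → E3 → ℝ) (hsymm : ∀ a b, f a b = f b a) {l l' : List E3}
    (h : l.Perm l') : lsum f l = lsum f l' := by
  induction h with
  | nil => rfl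
  | cons a h ih =>
    rw [lsum, lsum, ih, (h.map (f a)).sum_eq]
  | swap a b l =>
    simp only [lsum, List.map_cons, List.sum_cons]
    rw [hsymm b a]
    ring
  | trans _ _ ih1 ih2 => rw [ih1, ih2]

/-- Translation invariance of `lsum`. -/
theorem lsum_map_add (f : E3 → E3 → ℝ) (a : E3) (hf : ∀ p q, f (p + a) (q + a) = f p q)
    (l : List E3) : lsum f (l.map (fun p => p + a)) = lsum f l := by
  induction l with
  | nil => rfl
  | cons b l ih =>
    have hg : (f (b + a) ∘ fun p => p + a) = f b := by
      funext q
      exact hf b q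
    rw [List.map_cons, lsum, lsum, ih, List.map_map, hg]

/-- Removing an element: `lsum f l = lsum f (l.erase a) + ∑_{b ∈ l.erase a} f a b`
for symmetric `f` and `a ∈ l`. -/
theorem lsum_erase (f : E3 → E3 → ℝ) (hsymm : ∀ a b, f a b = f b a) (l : List E3) (a : E3)
    (ha : a ∈ l) : lsum f l = lsum f (l.erase a) + ((l.erase a).map (f a)).sum := by
  rw [lsum_perm f hsymm (List.perm_cons_erase ha), lsum, add_comm]

end Vale.Agent.H96.P171
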