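import Mathlib
import Vale.Agent.H96.P171.Defs

/-!
# P171 moonshot, energy layer: the family of potentials

Elementary facts about `phi0`, `bump`, `Phi t`, `En t`.
Paper proof: `Vale/Agent/H96/P171/PLAN.md`.
-/

open MeasureTheory
open scoped ENNReal

namespace Vale.Agent.H96.P171

theorem basic_rho_pos (n : ℕ) : (1 : ℝ) ≤ (rho n : ℝ) := by
  unfold rho
  exact_mod_cast Nat.succ_le_of_lt (Nat.factorial_pos (n + 1))

theorem basic_Rn_pos (n : ℕ) : 0 < Rn n := by
  have := basic_rho_pos n
  unfold Rn
  linarith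

theorem basic_Rn_inv_le_one (n : ℕ) : ((Rn n)⁻¹) ^ 3 ≤ 1 := by
  have h6 : (6 : ℝ) ≤ Rn n := by
    have := basic_rho_pos n
    unfold Rn
    linarith
  have hpos := basic_Rn_pos n
  have hinv : (Rn n)⁻¹ ≤ 1 := by
    rw [inv_le_one₀ hpos]
    linarith
  have hinv0 : 0 ≤ (Rn n)⁻¹ := inv_nonneg.mpr hpos.le
  exact pow_le_one₀ hinv0 hinv

theorem basic_lsum_nonneg (f : E3 → E3 → ℝ) (hf : ∀ a b, 0 ≤ f a b) (l : List E3) :
    0 ≤ lsum f l := by
  induction l with
  | nil => simp [lsum]
  | cons a l ih =>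
    have h1 : 0 ≤ (l.map (f a)).sum := by
      apply List.sum_nonneg
      intro x hx
      obtain ⟨b, _, rfl⟩ := List.mem_map.mp hx
      exact hf a b
    simp only [lsum]
    linarith

theorem basic_sum_map_le (g : E3 → ℝ) (c : ℝ) (hg : ∀ b, g b ≤ c) (l : List E3) :
    (l.map g).sum ≤ c * (l.length : ℝ) := by
  induction l with
  | nil => simp
  | cons b l ih =>
    simp only [List.map_cons, List.sum_cons, List.length_cons, Nat.cast_add, Nat.cast_one]
    have := hg b
    linarith

theorem basic_lsum_le (f : E3 → E3 → ℝ) (c : ℝ) (hc : 0 ≤ c) (hf : ∀ a b, f a b ≤ c)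
    (l : List E3) : lsum f l ≤ c * ((l.length : ℝ) ^ 2 / 2) := by
  induction l with
  | nil => simp [lsum]
  | cons a l ih =>
    have h1 := basic_sum_map_le (f a) c (hf a) l
    simp only [lsum, List.length_cons, Nat.cast_add, Nat.cast_one]
    have hlen : (0 : ℝ) ≤ (l.length : ℝ) := Nat.cast_nonneg _
    nlinarith

theorem basic_lsum_map (f : E3 → E3 → ℝ) (g : E3 → E3) (hfg : ∀ a b, f (g a) (g b) = f a b)
    (l : List E3) : lsum f (l.map g) = lsum f l := by
  induction l with
  | nil => simp [lsum]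
  | cons a l ih =>
    have h1 : ((l.map g).map (f (g a))).sum = (l.map (f a)).sum := by
      rw [List.map_map]
      congr 1
      apply List.map_congr_left
      intro b _
      exact hfg a b
    simp only [List.map_cons, lsum]
    rw [h1, ih]

theorem basic_bump_le_one (n : ℕ) (r : ℝ) : bump n r ≤ 1 := by
  unfold bump
  split_ifs
  · exact basic_Rn_inv_le_one n
  · exact zero_le_one

theorem basic_sum_tsum (t : ℕ → ℝ) (h : Adm t) (a : E3) (l : List E3) :
    Summable (fun n => t n * (l.map (fun b => bump n (dist a b))).sum) ∧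
      (l.map (fun b => ∑' n, t n * bump n (dist a b))).sum
        = ∑' n, t n * (l.map (fun b => bump n (dist a b))).sum := by
  induction l with
  | nil => simp [summable_zero]
  | cons b l ih =>
    obtain ⟨ih1, ih2⟩ := ih
    have hb : Summable fun n => t n * bump n (dist a b) := by
      refine Summable.of_nonneg_of_le (fun n => mul_nonneg (h.1 n) ?_) (fun n => ?_) h.2
      · unfold bump
        split_ifs
        · exact pow_nonneg (inv_nonneg.mpr (basic_Rn_pos n).le) 3
        · exact le_refl _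
      · calc t n * bump n (dist a b) ≤ t n * 1 :=
            mul_le_mul_of_nonneg_left (basic_bump_le_one n _) (h.1 n)
          _ = t n := mul_one _
    have heq : (fun n => t n * ((b :: l).map (fun b => bump n (dist a b))).sum)
        = fun n => t n * bump n (dist a b) + t n * (l.map (fun b => bump n (dist a b))).sum := by
      funext n
      simp only [List.map_cons, List.sum_cons]
      ring
    constructor
    · rw [heq]
      exact hb.add ih1
    · rw [heq, Summable.tsum_add hb ih1, ← ih2]
      simp only [List.map_cons, List.sum_cons]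

/-- `R_n ≥ 6`. -/
theorem Rn_ge (n : ℕ) : 6 ≤ Rn n := by
  have := basic_rho_pos n
  unfold Rn
  linarith

/-- The bumps are nonnegative and at most `1`. -/
theorem bump_nonneg (n : ℕ) (r : ℝ) : 0 ≤ bump n r := by
  unfold bump
  split_ifs
  · exact pow_nonneg (inv_nonneg.mpr (basic_Rn_pos n).le) 3
  · exact le_refl _

theorem bump_le (n : ℕ) (r : ℝ) : bump n r ≤ ((Rn n)⁻¹) ^ 3 := by
  unfold bump
  split_ifs
  · exact le_refl _
  · exact pow_nonneg (inv_nonneg.mpr (basic_Rn_pos n).le) 3

/-- The core is nonnegative. -/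
theorem phi0_nonneg (r : ℝ) : 0 ≤ phi0 r := by
  unfold phi0
  split_ifs
  · positivity
  · exact le_refl _

/-- The series defining the tail converges. -/
theorem summable_t_bump (t : ℕ → ℝ) (h : Adm t) (r : ℝ) : Summable fun n => t n * bump n r := by
  refine Summable.of_nonneg_of_le (fun n => mul_nonneg (h.1 n) (bump_nonneg n r)) (fun n => ?_) h.2
  calc t n * bump n r ≤ t n * 1 := mul_le_mul_of_nonneg_left (basic_bump_le_one n r) (h.1 n)
    _ = t n := mul_one _

/-- The potential is nonpositive at distances `≥ 1`. -/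
theorem Phi_nonpos (t : ℕ → ℝ) (h : Adm t) (r : ℝ) (hr : 1 ≤ r) : Phi t r ≤ 0 := by
  have h0 : phi0 r = 0 := by
    unfold phi0
    rw [if_neg (not_lt.mpr hr)]
  have h1 : 0 ≤ ∑' n : ℕ, t n * bump n r :=
    tsum_nonneg fun n => mul_nonneg (h.1 n) (bump_nonneg n r)
  unfold Phi
  rw [h0]
  linarith

/-- Lower bound for the tail: `Phi t r ≥ -(∑ t) r^(-3)` for `r ≥ 1`. -/
theorem Phi_ge (t : ℕ → ℝ) (h : Adm t) (r : ℝ) (hr : 1 ≤ r) : -((∑' n, t n) * (r⁻¹) ^ 3) ≤ Phi t r := by
  have h0 : phi0 r = 0 := by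
    unfold phi0
    rw [if_neg (not_lt.mpr hr)]
  have hr0 : 0 < r := lt_of_lt_of_le one_pos hr
  have hb : ∀ n, bump n r ≤ (r⁻¹) ^ 3 := by
    intro n
    unfold bump
    split_ifs with hlt
    · have : (Rn n)⁻¹ ≤ r⁻¹ := inv_anti₀ hr0 hlt.le
      exact pow_le_pow_left₀ (inv_nonneg.mpr (basic_Rn_pos n).le) this 3
    · positivity
  have hle : ∑' n : ℕ, t n * bump n r ≤ ∑' n : ℕ, t n * (r⁻¹) ^ 3 :=
    Summable.tsum_le_tsum (fun n => mul_le_mul_of_nonneg_left (hb n) (h.1 n))
      (summable_t_bump t h r) (h.2.mul_right _)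
  rw [tsum_mul_right] at hle
  unfold Phi
  rw [h0]
  linarith

theorem Ecore_nonneg (l : List E3) : 0 ≤ Ecore l := by
  exact basic_lsum_nonneg _ (fun a b => phi0_nonneg _) l

theorem Wn_nonneg (n : ℕ) (l : List E3) : 0 ≤ Wn n l := by
  exact basic_lsum_nonneg _ (fun a b => bump_nonneg n _) l

theorem Wn_le (n : ℕ) (l : List E3) : Wn n l ≤ ((Rn n)⁻¹) ^ 3 * ((l.length : ℝ) ^ 2 / 2) := by
  exact basic_lsum_le _ _ (pow_nonneg (inv_nonneg.mpr (basic_Rn_pos n).le) 3)
    (fun a b => bump_le n _) l

theorem summable_t_Wn (t : ℕ → ℝ) (h : Adm t) (l : List E3) : Summable fun n => t n * Wn n l := by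
  refine Summable.of_nonneg_of_le (fun n => mul_nonneg (h.1 n) (Wn_nonneg n l)) (fun n => ?_)
    (h.2.mul_right ((l.length : ℝ) ^ 2 / 2))
  have h1 := Wn_le n l
  have h2 : ((Rn n)⁻¹) ^ 3 * ((l.length : ℝ) ^ 2 / 2) ≤ 1 * ((l.length : ℝ) ^ 2 / 2) :=
    mul_le_mul_of_nonneg_right (basic_Rn_inv_le_one n) (by positivity)
  exact mul_le_mul_of_nonneg_left (by linarith) (h.1 n)

/-- The energy is the core energy minus the bump energies. -/
theorem En_eq (t : ℕ → ℝ) (h : Adm t) (l : List E3) : En t l = Ecore l - ∑' n, t n * Wn n l := by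
  induction l with
  | nil => simp [En, Ecore, Wn, lsum]
  | cons a l ih =>
    obtain ⟨hs1, hs2⟩ := basic_sum_tsum t h a l
    have hW := summable_t_Wn t h l
    have hsplit : (l.map (fun b => Phi t (dist a b))).sum
        = (l.map (fun b => phi0 (dist a b))).sum
          - (l.map (fun b => ∑' n, t n * bump n (dist a b))).sum := by
      clear hs1 hs2 ih hW
      induction l with
      | nil => simp
      | cons b l ih2 =>
        simp only [List.map_cons, List.sum_cons]
        rw [ih2]
        unfold Phi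
        ring
    have hEn : En t (a :: l) = (l.map (fun b => Phi t (dist a b))).sum + En t l := rfl
    have hEc : Ecore (a :: l) = (l.map (fun b => phi0 (dist a b))).sum + Ecore l := rfl
    have hWn : ∀ n, Wn n (a :: l) = (l.map (fun b => bump n (dist a b))).sum + Wn n l :=
      fun n => rfl
    have htsum : ∑' n, t n * Wn n (a :: l)
        = ∑' n, t n * (l.map (fun b => bump n (dist a b))).sum + ∑' n, t n * Wn n l := by
      rw [← Summable.tsum_add hs1 hW]
      congr 1
      funext n
      rw [hWn n]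
      ring
    rw [hEn, hEc, htsum, hsplit, hs2, ih]
    ring

/-- Translation invariance of the Boltzmann weight. -/
theorem bw_map_add (μ : ℝ) (t : ℕ → ℝ) (a : E3) (l : List E3) :
    bw μ t (l.map (fun p => p + a)) = bw μ t l := by
  have hE : En t (l.map (fun p => p + a)) = En t l := by
    unfold En
    exact basic_lsum_map _ _ (fun p q => by rw [dist_add_right]) l
  unfold bw
  rw [hE, List.length_map]

end Vale.Agent.H96.P171
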