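import Mathlib
import Vale.Agent.H96.P171.Defs

/-!
# P171 moonshot, energy layer: splitting a configuration into cells

Pure list lemmas: `lsum` against the sub-lists in pairwise disjoint cells.
Paper proof: `Vale/Agent/H96/P171/PLAN.md`.
-/

open MeasureTheory
open scoped ENNReal

namespace Vale.Agent.H96.P171

theorem split_rest_nil (A : Set E3) : rest A [] = [] := by
  unfold rest
  rfl

theorem split_rest_cons_mem {A : Set E3} {a : E3} (h : a ∈ A) (l : List E3) :
    rest A (a :: l) = a :: rest A l := by
  unfold rest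
  rw [List.filter_cons_of_pos]
  simpa using h

theorem split_rest_cons_not_mem {A : Set E3} {a : E3} (h : a ∉ A) (l : List E3) :
    rest A (a :: l) = rest A l := by
  unfold rest
  rw [List.filter_cons_of_neg]
  simpa using h

/-- Dropping nonpositive terms increases a sum. -/
theorem split_sum_le_filter (g : E3 → ℝ) (A : Set E3) (l : List E3)
    (h : ∀ b ∈ l, b ∉ A → g b ≤ 0) : (l.map g).sum ≤ ((rest A l).map g).sum := by
  induction l with
  | nil => rw [split_rest_nil]
  | cons b l ih =>
    have ih' := ih (fun c hc => h c (List.mem_cons_of_mem _ hc))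
    by_cases hb : b ∈ A
    · rw [split_rest_cons_mem hb, List.map_cons, List.sum_cons, List.map_cons, List.sum_cons]
      linarith
    · rw [split_rest_cons_not_mem hb, List.map_cons, List.sum_cons]
      have h2 := h b List.mem_cons_self hb
      linarith

/-- Dropping nonnegative terms decreases a sum. -/
theorem split_filter_le_sum (g : E3 → ℝ) (A : Set E3) (l : List E3)
    (h : ∀ b, 0 ≤ g b) : ((rest A l).map g).sum ≤ (l.map g).sum := by
  induction l with
  | nil => rw [split_rest_nil]
  | cons b l ih =>
    by_cases hb : b ∈ A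
    · rw [split_rest_cons_mem hb, List.map_cons, List.sum_cons, List.map_cons, List.sum_cons]
      linarith
    · rw [split_rest_cons_not_mem hb, List.map_cons, List.sum_cons]
      have h2 := h b
      linarith

/-- Adding a point of the cell `i0` changes only the term of `i0`. -/
theorem split_sum_cons {ι : Type} [Fintype ι] {M : Type} [AddCommMonoid M] (A : ι → Set E3)
    (hd : ∀ i j, i ≠ j → Disjoint (A i) (A j)) (F : List E3 → M) (c : M) (a : E3)
    (l : List E3) (i0 : ι) (hi0 : a ∈ A i0)
    (hF : F (a :: rest (A i0) l) = F (rest (A i0) l) + c) :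
    ∑ i, F (rest (A i) (a :: l)) = ∑ i, F (rest (A i) l) + c := by
  classical
  have hnot : ∀ i, i ≠ i0 → a ∉ A i := fun i hi ha =>
    Set.disjoint_left.mp (hd i i0 hi) ha hi0
  have hstep : ∀ i, F (rest (A i) (a :: l)) =
      F (rest (A i) l) + (if i = i0 then c else 0) := by
    intro i
    by_cases hi : i = i0
    · rw [hi, split_rest_cons_mem hi0, if_pos rfl, hF]
    · rw [split_rest_cons_not_mem (hnot i hi), if_neg hi, add_zero]
  rw [Finset.sum_congr rfl (fun i _ => hstep i), Finset.sum_add_distrib, Finset.sum_ite_eq']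
  simp

/-- If pairs in different cells contribute `≤ 0`, the pair sum is at most the sum over the cells. -/
theorem lsum_le_sum_rest {ι : Type} [Fintype ι] (A : ι → Set E3)
    (hd : ∀ i j, i ≠ j → Disjoint (A i) (A j)) (f : E3 → E3 → ℝ)
    (hf : ∀ i j, i ≠ j → ∀ a ∈ A i, ∀ b ∈ A j, f a b ≤ 0) (l : List E3)
    (hl : ∀ p ∈ l, ∃ i, p ∈ A i) :
    lsum f l ≤ ∑ i, lsum f (rest (A i) l) := by
  induction l with
  | nil =>
    simp [split_rest_nil, lsum]
  | cons a l ih =>
    have ih' := ih (fun p hp => hl p (List.mem_cons_of_mem _ hp))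
    obtain ⟨i0, hi0⟩ := hl a List.mem_cons_self
    rw [split_sum_cons A hd (lsum f) ((rest (A i0) l).map (f a)).sum a l i0 hi0
      (by show ((rest (A i0) l).map (f a)).sum + lsum f (rest (A i0) l) = _; ring)]
    show (l.map (f a)).sum + lsum f l ≤ _
    have h1 : (l.map (f a)).sum ≤ ((rest (A i0) l).map (f a)).sum := by
      apply split_sum_le_filter
      intro b hb hbA
      obtain ⟨j, hj⟩ := hl b (List.mem_cons_of_mem _ hb)
      have hji : i0 ≠ j := fun h => hbA (h ▸ hj)
      exact hf i0 j hji a hi0 b hj
    linarith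

/-- For a nonnegative pair function the sum over the cells is at most the pair sum. -/
theorem sum_rest_le_lsum {ι : Type} [Fintype ι] (A : ι → Set E3)
    (hd : ∀ i j, i ≠ j → Disjoint (A i) (A j)) (f : E3 → E3 → ℝ)
    (hf : ∀ a b, 0 ≤ f a b) (l : List E3) :
    ∑ i, lsum f (rest (A i) l) ≤ lsum f l := by
  induction l with
  | nil =>
    simp [split_rest_nil, lsum]
  | cons a l ih =>
    have hnn : 0 ≤ (l.map (f a)).sum := by
      apply List.sum_nonneg
      intro x hx
      obtain ⟨b, _, rfl⟩ := List.mem_map.mp hx
      exact hf a b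
    show _ ≤ (l.map (f a)).sum + lsum f l
    by_cases hex : ∃ i0, a ∈ A i0
    · obtain ⟨i0, hi0⟩ := hex
      rw [split_sum_cons A hd (lsum f) ((rest (A i0) l).map (f a)).sum a l i0 hi0
        (by show ((rest (A i0) l).map (f a)).sum + lsum f (rest (A i0) l) = _; ring)]
      have h1 := split_filter_le_sum (f a) (A i0) l (hf a)
      linarith
    · push Not at hex
      have hsum : ∑ i, lsum f (rest (A i) (a :: l)) = ∑ i, lsum f (rest (A i) l) :=
        Finset.sum_congr rfl (fun i _ => by rw [split_rest_cons_not_mem (hex i)])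
      rw [hsum]
      linarith

/-- The lengths of the sub-lists in the cells add up. -/
theorem sum_length_rest {ι : Type} [Fintype ι] (A : ι → Set E3)
    (hd : ∀ i j, i ≠ j → Disjoint (A i) (A j)) (l : List E3) (hl : ∀ p ∈ l, ∃ i, p ∈ A i) :
    ∑ i, (rest (A i) l).length = l.length := by
  induction l with
  | nil =>
    simp [split_rest_nil]
  | cons a l ih =>
    have ih' := ih (fun p hp => hl p (List.mem_cons_of_mem _ hp))
    obtain ⟨i0, hi0⟩ := hl a List.mem_cons_self
    have h1 := split_sum_cons A hd (fun l => l.length) 1 a l i0 hi0 (by simp)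
    rw [h1, ih', List.length_cons]

end Vale.Agent.H96.P171
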